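import Vale.Agent.P061.Complete

namespace Vale.Agent.Results.P061.ConstantAtLeastFour

open Vale.Agent.P061

/-- Lower bounds for the strong thin tree conjecture.
(1) For every `k ≥ 1` there is a `k`-edge-connected graph on `k + 1` vertices (the complete graph)
in which every `α`-thin spanning tree has `α ≥ 4k/(k+1)^2`.
(2) Hence any absolute constant `C` for which every `k`-edge-connected multigraph on at least two
vertices has a `(C/k)`-thin spanning tree satisfies `C ≥ 4`. -/
theorem result :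
    (∀ k : ℕ, 1 ≤ k → ∃ (V E : Type) (_ : Fintype V) (_ : Fintype E) (G : MultiGraph V E),
        Fintype.card V = k + 1 ∧ G.EdgeConnected k ∧
        ∀ (T : Finset E) (α : ℝ), G.IsSpanningTree T → G.IsThin T α →
          4 * (k : ℝ) / ((k : ℝ) + 1) ^ 2 ≤ α) ∧
    (∀ C : ℝ,
      (∀ k : ℕ, 1 ≤ k → ∀ (V E : Type) (_ : Fintype V) (_ : Fintype E) (G : MultiGraph V E),
        2 ≤ Fintype.card V → G.EdgeConnected k →
          ∃ T : Finset E, G.IsSpanningTree T ∧ G.IsThin T (C / (k : ℝ))) → 4 ≤ C) := by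
  have part1 : ∀ k : ℕ, 1 ≤ k →
      ∃ (V E : Type) (_ : Fintype V) (_ : Fintype E) (G : MultiGraph V E),
        Fintype.card V = k + 1 ∧ G.EdgeConnected k ∧
        ∀ (T : Finset E) (α : ℝ), G.IsSpanningTree T → G.IsThin T α →
          4 * (k : ℝ) / ((k : ℝ) + 1) ^ 2 ≤ α := by
    intro k hk
    refine ⟨Fin (k + 1), {z : Sym2 (Fin (k + 1)) // ¬ z.IsDiag}, Fin.fintype _,
      Fintype.ofFinite _, completeMG (Fin (k + 1)), by simp, ?_, ?_⟩
    · have := @edgeConnected_completeMG (Fin (k + 1)) (Fin.fintype _) (Fintype.ofFinite _)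
      simpa using this
    · intro T α hT hα
      have := @thin_completeMG_lower (Fin (k + 1)) (Fin.fintype _) (Fintype.ofFinite _)
        (by simp; omega) T α hT hα
      simpa using this
  refine ⟨part1, ?_⟩
  intro C hC
  by_contra hlt
  rw [not_le] at hlt
  -- choose `k` with `8 / (k + 1) < 4 - C`
  obtain ⟨m, hm⟩ := exists_nat_gt (8 / (4 - C))
  have hpos : 0 < 4 - C := by linarith
  set k : ℕ := m + 1 with hk
  obtain ⟨V, E, iV, iE, G, hcard, hconn, hlow⟩ := part1 k (by omega)
  obtain ⟨T, hT, hthin⟩ := hC k (by omega) V E iV iE G (by omega) hconn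
  have h1 := hlow T _ hT hthin
  have hkpos : (0 : ℝ) < (k : ℝ) := by
    have : 0 < k := by omega
    exact_mod_cast this
  have hkm : (m : ℝ) + 1 = (k : ℝ) := by rw [hk]; push_cast; ring
  rw [div_le_div_iff₀ (by positivity) hkpos] at h1
  -- `4 k^2 ≤ C (k+1)^2`
  have h2 : 8 < (4 - C) * (m : ℝ) := by
    rw [div_lt_iff₀ hpos] at hm
    linarith
  have h3 : 8 < (4 - C) * (k : ℝ) := by
    rw [← hkm]; nlinarith
  nlinarith [mul_pos hkpos hkpos, mul_pos hpos hkpos]

end Vale.Agent.Results.P061.ConstantAtLeastFour
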